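import Vale.Agent.P134.H134.Uncond
import Vale.Agent.P134.B331.Stm
import Vale.Agent.P134.R2.H908.Stm
import Vale.Agent.P134.R2.H908.Fin

open Vale.Agent.P134.B331 Vale.Agent.P134.R2.H908
open scoped InnerProductSpace

namespace Vale.Agent.Results.P134.AlmostSymmetric

/-- (1) De Giorgi's conjecture in dimension five, without any assumption on limits, for every
solution which is nondecreasing along some Killing field `X` (rotations, screw motions,
translations), not a multiple of `a`, up to an `L²` error of growth `R² (1 + log R)`, if the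
derivative of `u` along `X` is nonpositive somewhere (for instance if `X` has a zero) or `u` is
also nonincreasing along `X` up to such an error.
(2) The same for stable solutions on `ℝ⁴`, if the derivative of `u` along `X` has a zero.
(3) In every dimension: a monotone solution as in (1) is invariant under the field `X - s a` for a
real number `s`; a stable solution as in (2) is invariant under `X`.
(4) De Giorgi's conjecture in dimensions `n ≤ 7`, without any assumption on limits, for every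
solution which is almost symmetric about an affine plane `c + W`.
(5) The same for stable solutions on `ℝⁿ`, `3 ≤ n ≤ 6`, almost symmetric about a line. -/
theorem result :
    (∀ (u : EuclideanSpace ℝ (Fin 5) → ℝ) a, BddSol u → Incr u a →
      ∀ X, Killing X → (∀ s : ℝ, ∃ x, X x ≠ s • a) → AlmostMonotone u X →
      ((∃ x, along u X x ≤ 0) ∨ AlmostMonotone u (-X)) → ∃ e, Layer u e ∧ 0 < ⟪e, a⟫_ℝ) ∧
    (∀ u : EuclideanSpace ℝ (Fin 4) → ℝ, BddSol u → StableSol u →
      ∀ X, Killing X → (∃ x, X x ≠ 0) → AlmostMonotone u X → (∃ x, along u X x = 0) →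
      OneDim u) ∧
    (∀ (n : ℕ) (u : EuclideanSpace ℝ (Fin n) → ℝ), BddSol u →
      ∀ X, Killing X → AlmostMonotone u X →
      (∀ a, Incr u a → ((∃ x, along u X x ≤ 0) ∨ AlmostMonotone u (-X)) →
        ∃ s : ℝ, ∀ x, along u X x = s * fderiv ℝ u x a) ∧
      (StableSol u → (∃ x, along u X x = 0) → ∀ x, along u X x = 0)) ∧
    (∀ n ≤ 7, ∀ (u : EuclideanSpace ℝ (Fin n) → ℝ) a, BddSol u → Incr u a →
      ∀ (W : Submodule ℝ (EuclideanSpace ℝ (Fin n))) (c), Module.finrank ℝ W = 2 →
      AlmostAxial u W c → ∃ e, Layer u e ∧ 0 < ⟪e, a⟫_ℝ) ∧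
    (∀ n, 3 ≤ n → n ≤ 6 → ∀ u : EuclideanSpace ℝ (Fin n) → ℝ, BddSol u → StableSol u →
      ∀ (W : Submodule ℝ (EuclideanSpace ℝ (Fin n))) (c), Module.finrank ℝ W = 1 →
      AlmostAxial u W c → OneDim u) := by
  refine ⟨?_, ?_, ?_, ?_, ?_⟩
  · rintro u a hu ha X ⟨B, c, hB, hX⟩ hne hg h
    obtain rfl : X = fun x => B x + c := funext hX
    have hne' : B ≠ 0 ∨ ∀ s : ℝ, c ≠ s • a := by
      by_cases h0 : B = 0
      · refine Or.inr fun s hs => ?_
        obtain ⟨x, hx⟩ := hne s
        apply hx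
        simp [h0, hs]
      · exact Or.inl h0
    obtain ⟨e, c', he, hea, hu'⟩ := five_almost Vale.Agent.P134.H134.stS3
      (fun _ hu heq hb _ ha =>
        Vale.Agent.P134.H134.mono_of_S3 Vale.Agent.P134.H134.stS3 le_rfl hu heq hb ha)
      hu.1 hu.2.1 hu.2.2 ha hB hne' hg (h.imp_right amono_neg)
    exact ⟨e, ⟨he, c', hu'⟩, hea⟩
  · rintro u hu hs X ⟨B, c, hB, hX⟩ hne hg h
    obtain rfl : X = fun x => B x + c := funext hX
    have hne' : B ≠ 0 ∨ c ≠ 0 := by
      by_cases h0 : B = 0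
      · refine Or.inr fun hc => ?_
        obtain ⟨x, hx⟩ := hne
        apply hx
        simp [h0, hc]
      · exact Or.inl h0
    rcases four_almost Vale.Agent.P134.H134.stS3 hu.1 hu.2.1 hu.2.2 hs hB hne' hg h with
      h1 | h1 | ⟨e, c', he, hu'⟩
    · exact Or.inl h1
    · exact Or.inr (Or.inl h1)
    · exact Or.inr (Or.inr ⟨e, he, c', hu'⟩)
  · rintro n u hu X ⟨B, c, hB, hX⟩ hg
    obtain rfl : X = fun x => B x + c := funext hX
    exact ⟨fun a ha h => rigid_mono' hu.1 hu.2.1 hu.2.2 ha hB hg (h.imp_right amono_neg),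
      fun hs ⟨_, hx⟩ => rigid_stable hu.1 hu.2.1 hu.2.2 hs hB hg hx⟩
  · intro n hn u a hu ha W c hW hA
    obtain ⟨e, c', he, hea, hu'⟩ := mono_axis hn hu.1 hu.2.1 hu.2.2 ha hW (axial_fld hA)
    exact ⟨e, ⟨he, c', hu'⟩, hea⟩
  · intro n h3 h6 u hu hs W c hW hA
    obtain ⟨m, rfl⟩ : ∃ m, n = m + 3 := ⟨n - 3, by omega⟩
    rcases stable_axis (by omega) hu.1 hu.2.1 hu.2.2 hs hW (axial_fld hA) with
      h1 | h1 | ⟨e, c', he, hu'⟩
    · exact Or.inl h1
    · exact Or.inr (Or.inl h1)
    · exact Or.inr (Or.inr ⟨e, he, c', hu'⟩)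

end Vale.Agent.Results.P134.AlmostSymmetric
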