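import Vale.Agent.P134.R2.H529.Main2

open Filter Topology
open Vale.Agent.P134.R2.H561 (AlmostIncreasing)
open scoped InnerProductSpace Laplacian

namespace Vale.Agent.Results.P134.DenseLevelSets

/-- (1) Liouville theorem: bounded stable solutions on `ℝ^n`, `n` arbitrary, for which every ball
`B(y, K + α log (1 + |y|))`, `α < √2/3`, contains a point with `w ≥ c > -1` are identically `1`.
(2) Bounded solutions increasing in the direction `a`: if for every `y` orthogonal to `a` some point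
at distance at most `K + α log (1 + |y|)` from the line `y + ℝ a` has `u ≥ c > -1`, then
`u(x+ta) → 1` as `t → ∞`; if it has `u ≤ c < 1`, then `u(x+ta) → -1` as `t → -∞`.
(3) If each of the two limit profiles is of the type (2) or almost increasing in `n - 3`
independent directions, then the limits are `1` and `-1`. -/
theorem result :
    (∀ n : ℕ, ∀ w : EuclideanSpace ℝ (Fin n) → ℝ, ContDiff ℝ 2 w →
      (∀ x, Δ w x = w x ^ 3 - w x) → (∃ M : ℝ, ∀ x, |w x| ≤ M) →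
      (∀ η : EuclideanSpace ℝ (Fin n) → ℝ, ContDiff ℝ (⊤ : ℕ∞) η → HasCompactSupport η →
        0 ≤ ∫ x, (‖fderiv ℝ η x‖ ^ 2 + (3 * w x ^ 2 - 1) * η x ^ 2)) →
      ∀ K α c : ℝ, α < √2 / 3 → -1 < c →
      (∀ y, ∃ x, dist x y ≤ K + α * Real.log (1 + ‖y‖) ∧ c ≤ w x) → ∀ x, w x = 1) ∧
    (∀ n : ℕ, ∀ u : EuclideanSpace ℝ (Fin n) → ℝ, ContDiff ℝ 2 u →
      (∀ x, Δ u x = u x ^ 3 - u x) → (∃ M : ℝ, ∀ x, |u x| ≤ M) →
      ∀ a : EuclideanSpace ℝ (Fin n), (∀ x, 0 < fderiv ℝ u x a) →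
      ∀ K α c : ℝ, α < √2 / 3 →
      (-1 < c → (∀ y, ⟪a, y⟫_ℝ = 0 → ∃ (x : EuclideanSpace ℝ (Fin n)) (t : ℝ),
        dist x (y + t • a) ≤ K + α * Real.log (1 + ‖y‖) ∧ c ≤ u x) →
        ∀ x, Tendsto (fun t : ℝ => u (x + t • a)) atTop (𝓝 1)) ∧
      (c < 1 → (∀ y, ⟪a, y⟫_ℝ = 0 → ∃ (x : EuclideanSpace ℝ (Fin n)) (t : ℝ),
        dist x (y + t • a) ≤ K + α * Real.log (1 + ‖y‖) ∧ u x ≤ c) →
        ∀ x, Tendsto (fun t : ℝ => u (x + t • a)) atBot (𝓝 (-1)))) ∧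
    (∀ n : ℕ, ∀ u : EuclideanSpace ℝ (Fin n) → ℝ, ContDiff ℝ 2 u →
      (∀ x, Δ u x = u x ^ 3 - u x) → (∃ M : ℝ, ∀ x, |u x| ≤ M) →
      ∀ a : EuclideanSpace ℝ (Fin n), (∀ x, 0 < fderiv ℝ u x a) →
      ∀ U V : EuclideanSpace ℝ (Fin n) → ℝ,
      (∀ x, Tendsto (fun t : ℝ => u (x + t • a)) atTop (𝓝 (U x))) →
      (∀ x, Tendsto (fun t : ℝ => u (x + t • a)) atBot (𝓝 (V x))) →
      ((∃ K α c : ℝ, α < √2 / 3 ∧ -1 < c ∧
          ∀ y, ∃ x, dist x y ≤ K + α * Real.log (1 + ‖y‖) ∧ c ≤ U x) ∨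
        ∃ (k : ℕ) (b : Fin k → EuclideanSpace ℝ (Fin n)), n ≤ k + 3 ∧ LinearIndependent ℝ b ∧
          ∀ i, AlmostIncreasing U (b i)) →
      ((∃ K α c : ℝ, α < √2 / 3 ∧ c < 1 ∧
          ∀ y, ∃ x, dist x y ≤ K + α * Real.log (1 + ‖y‖) ∧ V x ≤ c) ∨
        ∃ (k : ℕ) (b : Fin k → EuclideanSpace ℝ (Fin n)), n ≤ k + 3 ∧ LinearIndependent ℝ b ∧
          ∀ i, AlmostIncreasing V (b i)) →
      (∀ x, U x = 1) ∧ (∀ x, V x = -1)) :=
  ⟨fun _ _ hw heq hb hs _ _ _ hα hc h =>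
      Vale.Agent.P134.R2.H529.liou_euc2 hw heq hb hs hα hc h,
    fun _ _ hu heq hb _ ha _ _ _ hα =>
      ⟨fun hc h => Vale.Agent.P134.R2.H529.top_euc2 hu heq hb ha hα hc h,
        fun hc h => Vale.Agent.P134.R2.H529.bot_euc2 hu heq hb ha hα hc h⟩,
    fun _ _ hu heq hb _ ha _ _ hU hV h1 h2 =>
      Vale.Agent.P134.R2.H529.two_euc2 hu heq hb ha hU hV h1 h2⟩

end Vale.Agent.Results.P134.DenseLevelSets
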