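import Vale.Agent.P134.R2.H561.Euc2

open Vale.Agent.P134.R2.H561
open scoped InnerProductSpace Laplacian

namespace Vale.Agent.Results.P134.MonotoneDirections

/-- (1) De Giorgi's conjecture, without any assumption on limits, in all dimensions `n ≤ k + 4` for
bounded solutions increasing in a direction `a₀` and, up to an `L²` error of quadratic growth, in
`k` further independent directions.
(2) Bounded stable solutions on `ℝ^(m+3)` which are increasing, up to an `L²` error of quadratic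
growth, in `m` independent directions are constant `±1` or one-dimensional. -/
theorem result :
    (∀ n k : ℕ, n ≤ k + 4 → ∀ u : EuclideanSpace ℝ (Fin n) → ℝ, ContDiff ℝ 2 u →
      (∀ x, Δ u x = u x ^ 3 - u x) → (∃ M : ℝ, ∀ x, |u x| ≤ M) →
      ∀ (a₀ : EuclideanSpace ℝ (Fin n)) (a : Fin k → EuclideanSpace ℝ (Fin n)),
      LinearIndependent ℝ (Fin.cons a₀ a : Fin (k + 1) → EuclideanSpace ℝ (Fin n)) →
      (∀ x, 0 ≤ fderiv ℝ u x a₀) → (∃ x, 0 < fderiv ℝ u x a₀) →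
      (∀ i, AlmostIncreasing u (a i)) →
      ∃ (e : EuclideanSpace ℝ (Fin n)) (c : ℝ), ‖e‖ = 1 ∧ 0 < ⟪e, a₀⟫_ℝ ∧
        ∀ x, u x = Real.tanh ((⟪e, x⟫_ℝ - c) / √2)) ∧
    (∀ m : ℕ, ∀ u : EuclideanSpace ℝ (Fin (m + 3)) → ℝ, ContDiff ℝ 2 u →
      (∀ x, Δ u x = u x ^ 3 - u x) → (∃ M : ℝ, ∀ x, |u x| ≤ M) →
      (∀ η : EuclideanSpace ℝ (Fin (m + 3)) → ℝ, ContDiff ℝ (⊤ : ℕ∞) η → HasCompactSupport η →
        0 ≤ ∫ x, (‖fderiv ℝ η x‖ ^ 2 + (3 * u x ^ 2 - 1) * η x ^ 2)) →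
      ∀ a : Fin m → EuclideanSpace ℝ (Fin (m + 3)), LinearIndependent ℝ a →
      (∀ i, AlmostIncreasing u (a i)) →
      (∀ x, u x = 1) ∨ (∀ x, u x = -1) ∨
        ∃ (e : EuclideanSpace ℝ (Fin (m + 3))) (c : ℝ), ‖e‖ = 1 ∧
          ∀ x, u x = Real.tanh ((⟪e, x⟫_ℝ - c) / √2)) := by
  refine ⟨fun n k hn u hu heq hb a₀ a hla ha0 hx hg => ?_, fun m u hu heq hb hs a hla hg =>
    stable_growth hu heq hb hs hla hg⟩
  refine mono_growth (k := k + 1) (by omega) hu heq hb ha0 hx hla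
    fun i => ?_
  refine Fin.cases ?_ (fun j => ?_) i
  · refine ⟨0, fun R _ => ?_⟩
    rw [Fin.cons_zero]
    have h1 : ∀ x, (min (fderiv ℝ u x a₀) 0) ^ 2 = 0 := fun x => by
      rw [min_eq_right (ha0 x)]; ring
    simp [h1]
  · rw [Fin.cons_succ]
    exact hg j

end Vale.Agent.Results.P134.MonotoneDirections
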