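import Vale.Agent.P134.R2.H529.Thin6
import Vale.Agent.P134.R2.H584.Dr8

open Filter Topology MeasureTheory
open scoped InnerProductSpace Laplacian

namespace Vale.Agent.Results.P134.ThinTransition

/-- A bounded solution of the Allen-Cahn equation on `ℝ^n`. -/
def BddSol {n : ℕ} (u : EuclideanSpace ℝ (Fin n) → ℝ) : Prop :=
  ContDiff ℝ 2 u ∧ (∀ x, Δ u x = u x ^ 3 - u x) ∧ ∃ M : ℝ, ∀ x, |u x| ≤ M

/-- Stability: the second variation of the energy is nonnegative. -/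
def StableSol {n : ℕ} (w : EuclideanSpace ℝ (Fin n) → ℝ) : Prop :=
  ∀ η : EuclideanSpace ℝ (Fin n) → ℝ, ContDiff ℝ (⊤ : ℕ∞) η → HasCompactSupport η →
    0 ≤ ∫ x, (‖fderiv ℝ η x‖ ^ 2 + (3 * w x ^ 2 - 1) * η x ^ 2)

/-- The point `(y, t)` of `ℝ^(n+1)`. -/
noncomputable def pt {n : ℕ} (y : EuclideanSpace ℝ (Fin n)) (t : ℝ) :
    EuclideanSpace ℝ (Fin (n + 1)) :=
  WithLp.toLp 2 (Fin.snoc (fun i => y i) t)

/-- `S` has volume `O(R²)` in the balls of radius `R`. -/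
def IsThin {n : ℕ} (S : Set (EuclideanSpace ℝ (Fin n))) : Prop :=
  ∃ K : ℝ, ∀ R : ℝ, 1 ≤ R → volume.real (Metric.ball 0 R ∩ S) ≤ K * R ^ 2

/-- `w` is a function of `(|x'|², |x''|²)`, `x' ∈ ℝ³`, `x'' ∈ ℝ²`, in the orthonormal coordinates
of some basis `b` and some origin `c`. -/
def IsRev5 (w : EuclideanSpace ℝ (Fin 5) → ℝ) : Prop :=
  ∃ (b : OrthonormalBasis (Fin 5) ℝ (EuclideanSpace ℝ (Fin 5)))
    (c : EuclideanSpace ℝ (Fin 5)) (F : ℝ → ℝ → ℝ),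
    ∀ x, w x = F (⟪b 0, x - c⟫_ℝ ^ 2 + ⟪b 1, x - c⟫_ℝ ^ 2 + ⟪b 2, x - c⟫_ℝ ^ 2)
      (⟪b 3, x - c⟫_ℝ ^ 2 + ⟪b 4, x - c⟫_ℝ ^ 2)

/-- `u` is a function of `(|x'|², |x''|², x₆)`, `x' ∈ ℝ³`, `x'' ∈ ℝ²`, in the orthonormal
coordinates of some basis `b` and some origin `c`. -/
def IsRev6 (u : EuclideanSpace ℝ (Fin 6) → ℝ) : Prop :=
  ∃ (b : OrthonormalBasis (Fin 6) ℝ (EuclideanSpace ℝ (Fin 6)))
    (c : EuclideanSpace ℝ (Fin 6)) (F : ℝ → ℝ → ℝ → ℝ),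
    ∀ x, u x = F (⟪b 0, x - c⟫_ℝ ^ 2 + ⟪b 1, x - c⟫_ℝ ^ 2 + ⟪b 2, x - c⟫_ℝ ^ 2)
      (⟪b 3, x - c⟫_ℝ ^ 2 + ⟪b 4, x - c⟫_ℝ ^ 2) ⟪b 5, x - c⟫_ℝ

/-- (1) `n ≥ 4`: a bounded stable solution on `ℝ^n` whose transition region `{c₁ ≤ w ≤ c₂}` between
two levels of `(-1, 1)` is thin is identically `1` or `-1`.
(2) Bounded solutions `u` on `ℝ^(n+1)` increasing in the last variable: a profile (limit as
`t → ± ∞`) with a thin transition region is identically `1`, respectively `-1`.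
(3) If the lines parallel to the last axis which miss the level set `{u = c}` form a thin set,
`|c| < 1`, then `u(y, t) → ± 1` as `t → ± ∞`.
(4) Bounded stable solutions on `ℝ⁵` of the form `w = F(|x'|², |x''|²)`, `x' ∈ ℝ³`, `x'' ∈ ℝ²`, are
constant `±1`.
(5) Bounded monotone solutions on `ℝ⁶` of the form `u = F(|x'|², |x''|², x₆)`, `x' ∈ ℝ³`,
`x'' ∈ ℝ²`, have the limits `±1` in a direction of strict monotonicity. -/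
theorem result :
    (∀ n : ℕ, 4 ≤ n → ∀ w : EuclideanSpace ℝ (Fin n) → ℝ, BddSol w → StableSol w →
      ∀ c₁ c₂ : ℝ, -1 < c₁ → c₁ < c₂ → c₂ < 1 → IsThin {x | c₁ ≤ w x ∧ w x ≤ c₂} →
      (∀ x, w x = 1) ∨ ∀ x, w x = -1) ∧
    (∀ n : ℕ, 4 ≤ n → ∀ u : EuclideanSpace ℝ (Fin (n + 1)) → ℝ, BddSol u →
      (∀ x, 0 < fderiv ℝ u x (EuclideanSpace.single (Fin.last n) 1)) →
      (∀ U : EuclideanSpace ℝ (Fin n) → ℝ,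
        (∀ y, Tendsto (fun t : ℝ => u (pt y t)) atTop (𝓝 (U y))) →
        ∀ c₁ c₂ : ℝ, -1 < c₁ → c₁ < c₂ → c₂ < 1 → IsThin {y | c₁ ≤ U y ∧ U y ≤ c₂} →
        ∀ y, U y = 1) ∧
      (∀ V : EuclideanSpace ℝ (Fin n) → ℝ,
        (∀ y, Tendsto (fun t : ℝ => u (pt y t)) atBot (𝓝 (V y))) →
        ∀ c₁ c₂ : ℝ, -1 < c₁ → c₁ < c₂ → c₂ < 1 → IsThin {y | c₁ ≤ V y ∧ V y ≤ c₂} →
        ∀ y, V y = -1) ∧
      (∀ c : ℝ, -1 < c → c < 1 → IsThin {y | ∀ t, u (pt y t) ≠ c} →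
        ∀ y, Tendsto (fun t : ℝ => u (pt y t)) atTop (𝓝 1) ∧
          Tendsto (fun t : ℝ => u (pt y t)) atBot (𝓝 (-1)))) ∧
    (∀ w : EuclideanSpace ℝ (Fin 5) → ℝ, BddSol w → StableSol w → IsRev5 w →
      (∀ x, w x = 1) ∨ ∀ x, w x = -1) ∧
    (∀ (u : EuclideanSpace ℝ (Fin 6) → ℝ) a, BddSol u → (∀ x, 0 < fderiv ℝ u x a) → IsRev6 u →
      ∃ e : EuclideanSpace ℝ (Fin 6), ‖e‖ = 1 ∧ 0 < ⟪e, a⟫_ℝ ∧ (∀ x, 0 < fderiv ℝ u x e) ∧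
        ∀ x, Tendsto (fun t : ℝ => u (x + t • e)) atTop (𝓝 1) ∧
          Tendsto (fun t : ℝ => u (x + t • e)) atBot (𝓝 (-1))) :=
  ⟨fun _ hn _ hw hs c₁ c₂ h1 h12 h2 ⟨K, hK⟩ =>
      Vale.Agent.P134.R2.H529.thin_stable hn hw.1 hw.2.1 hw.2.2 hs ⟨c₁, c₂, K, h1, h12, h2, hK⟩,
    fun _ hn _ hu hm =>
      ⟨fun _ hU c₁ c₂ h1 h12 h2 ⟨K, hK⟩ =>
          Vale.Agent.P134.R2.H529.thin_top hn hu.1 hu.2.1 hu.2.2 hm hU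
            ⟨c₁, c₂, K, h1, h12, h2, hK⟩,
        fun _ hV c₁ c₂ h1 h12 h2 ⟨K, hK⟩ =>
          Vale.Agent.P134.R2.H529.thin_bot hn hu.1 hu.2.1 hu.2.2 hm hV
            ⟨c₁, c₂, K, h1, h12, h2, hK⟩,
        fun _ h1 h2 ⟨_, hK⟩ =>
          Vale.Agent.P134.R2.H529.thin_miss hn hu.1 hu.2.1 hu.2.2 hm h1 h2 hK⟩,
    fun _ hw hs ⟨b, c, F, hF⟩ =>
      Vale.Agent.P134.R2.H584.dr_stable hw.1 hw.2.1 hw.2.2 hs b c F hF,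
    fun _ _ hu ha ⟨b, c, F, hF⟩ =>
      Vale.Agent.P134.R2.H584.dr_mono hu.1 hu.2.1 hu.2.2 ha b c F hF⟩

end Vale.Agent.Results.P134.ThinTransition
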